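import Mathlib

/-!
# P002: definitions
-/

namespace Vale.Agent.P002

open Matrix

/-- `W` is stable under the representation `ρ` -/
def Stable {Γ : Type} [Group Γ] {r : ℕ} (ρ : Γ →* SpecialLinearGroup (Fin r) ℂ)
    (W : Submodule ℂ (Fin r → ℂ)) : Prop :=
  ∀ x : Γ, ∀ v ∈ W, (ρ x : Matrix (Fin r) (Fin r) ℂ) *ᵥ v ∈ W

/-- semisimple representations: every stable subspace has a stable complement -/
def Semisimple {Γ : Type} [Group Γ] {r : ℕ} (ρ : Γ →* SpecialLinearGroup (Fin r) ℂ) : Prop :=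
  ∀ W : Submodule ℂ (Fin r → ℂ), Stable ρ W → ∃ W', Stable ρ W' ∧ IsCompl W W'

/-- the representation conjugated by `h` -/
def conj {Γ : Type} [Group Γ] {r : ℕ} (h : SpecialLinearGroup (Fin r) ℂ)
    (ρ : Γ →* SpecialLinearGroup (Fin r) ℂ) : Γ →* SpecialLinearGroup (Fin r) ℂ :=
  (MulAut.conj h).toMonoidHom.comp ρ

/-- value at `ρ` of the polynomial `f` in the entries of the matrices `ρ (g 1), …, ρ (g n)` -/
noncomputable def val {Γ : Type} [Group Γ] {n r : ℕ} (g : Fin n → Γ)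
    (f : MvPolynomial (Fin n × Fin r × Fin r) ℂ) (ρ : Γ →* SpecialLinearGroup (Fin r) ℂ) : ℂ :=
  MvPolynomial.eval (fun k => (ρ (g k.1) : Matrix (Fin r) (Fin r) ℂ) k.2.1 k.2.2) f

/-- `f` is a function on the character variety: invariant under simultaneous conjugation -/
def Invariant {Γ : Type} [Group Γ] {n r : ℕ} (g : Fin n → Γ)
    (f : MvPolynomial (Fin n × Fin r × Fin r) ℂ) : Prop :=
  ∀ (ρ : Γ →* SpecialLinearGroup (Fin r) ℂ) (h : SpecialLinearGroup (Fin r) ℂ),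
    val g f (conj h ρ) = val g f ρ

/-- all eigenvalues are roots of unity -/
def QuasiUnipotent {r : ℕ} (A : SpecialLinearGroup (Fin r) ℂ) : Prop :=
  ∀ z : ℂ, (A : Matrix (Fin r) (Fin r) ℂ).charpoly.IsRoot z → ∃ m : ℕ, 0 < m ∧ z ^ m = 1

/-- the set `Y`: semisimple, and `ρ (γ i)` lies in the conjugacy class `C i` for every `i` -/
def InY {Γ : Type} [Group Γ] {r s : ℕ} (γ : Fin s → Γ)
    (C : Fin s → ConjClasses (SpecialLinearGroup (Fin r) ℂ))
    (ρ : Γ →* SpecialLinearGroup (Fin r) ℂ) : Prop :=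
  Semisimple ρ ∧ ∀ i, ConjClasses.mk (ρ (γ i)) = C i

/-- `ρ` has values in `SL_r(𝓞_L)` -/
def Integral {Γ : Type} [Group Γ] {r : ℕ} (L : IntermediateField ℚ ℂ)
    (ρ : Γ →* SpecialLinearGroup (Fin r) ℂ) : Prop :=
  ∀ (x : Γ) (i j : Fin r), (ρ x : Matrix (Fin r) (Fin r) ℂ) i j ∈ L ∧
    IsIntegral ℤ ((ρ x : Matrix (Fin r) (Fin r) ℂ) i j)

end Vale.Agent.P002
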