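import Mathlib
import Vale.Agent.P002.Defs

/-!
# P002: semisimple representations of abelian groups are diagonalizable
-/

namespace Vale.Agent.P002

open Matrix Module

/-- coordinate complements -/
theorem coord_compl {V : Type} [AddCommGroup V] [Module ℂ V] {r : ℕ} (b : Basis (Fin r) ℂ V)
    (W : Submodule ℂ V) : ∃ S : Finset (Fin r), IsCompl W (Submodule.span ℂ (b '' S)) := by
  classical
  let P : Finset (Fin r) → Prop := fun S => Disjoint W (Submodule.span ℂ (b '' S))
  have h0 : P ∅ := by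
    show Disjoint W (Submodule.span ℂ (b '' ((∅ : Finset (Fin r)) : Set (Fin r))))
    simp
  obtain ⟨S, hS, hmax⟩ : ∃ S, P S ∧ ∀ T, P T → T.card ≤ S.card := by
    have hfin : (Finset.univ.filter P : Finset (Finset (Fin r))).Nonempty := ⟨∅, by simp [h0]⟩
    obtain ⟨S, hS, hm⟩ := Finset.exists_max_image _ Finset.card hfin
    refine ⟨S, (Finset.mem_filter.mp hS).2, fun T hT => hm T ?_⟩
    simp [hT]
  refine ⟨S, hS, ?_⟩
  rw [codisjoint_iff, eq_top_iff, ← b.span_eq, Submodule.span_le]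
  rintro _ ⟨i, rfl⟩
  by_cases hi : i ∈ S
  · exact Submodule.mem_sup_right (Submodule.subset_span ⟨i, hi, rfl⟩)
  · have hn : ¬ P (insert i S) := by
      intro h
      have := hmax _ h
      rw [Finset.card_insert_of_notMem hi] at this
      omega
    have hn' : ¬ Disjoint W (Submodule.span ℂ (b '' ((insert i S : Finset (Fin r)) : Set (Fin r)))) :=
      hn
    rw [Submodule.disjoint_def] at hn'
    push Not at hn'
    obtain ⟨v, hvW, hv, hv0⟩ := hn'
    rw [Finset.coe_insert, Set.image_insert_eq, Submodule.mem_span_insert] at hv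
    obtain ⟨c, w, hw, rfl⟩ := hv
    have hc : c ≠ 0 := by
      rintro rfl
      rw [zero_smul, zero_add] at hvW hv0
      exact hv0 ((Submodule.disjoint_def.mp hS) w hvW hw)
    have : b i = c⁻¹ • (c • b i + w) - c⁻¹ • w := by
      rw [smul_add, smul_smul, inv_mul_cancel₀ hc, one_smul, add_sub_cancel_right]
    show b i ∈ W ⊔ _
    rw [this]
    exact sub_mem (Submodule.mem_sup_left (Submodule.smul_mem _ _ hvW))
      (Submodule.mem_sup_right (Submodule.smul_mem _ _ hw))

/-- diagonal representations are semisimple -/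
theorem semisimple_of_diagonal {Γ : Type} [Group Γ] {r : ℕ}
    (ρ : Γ →* SpecialLinearGroup (Fin r) ℂ) (χ : Γ → Fin r → ℂ)
    (hρ : ∀ x, (ρ x : Matrix (Fin r) (Fin r) ℂ) = diagonal (χ x)) : Semisimple ρ := by
  classical
  intro W _
  obtain ⟨S, hS⟩ := coord_compl (Pi.basisFun ℂ (Fin r)) W
  refine ⟨_, ?_, hS⟩
  intro x v hv
  rw [hρ]
  induction hv using Submodule.span_induction with
  | mem v hv =>
    obtain ⟨i, hi, rfl⟩ := hv
    have : diagonal (χ x) *ᵥ (Pi.basisFun ℂ (Fin r)) i = χ x i • (Pi.basisFun ℂ (Fin r)) i := by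
      ext j
      rw [mulVec_diagonal]
      simp only [Pi.basisFun_apply, Pi.smul_apply, smul_eq_mul, Pi.single_apply]
      split_ifs with h
      · rw [h]
      · simp
    rw [this]
    exact Submodule.smul_mem _ _ (Submodule.subset_span ⟨i, hi, rfl⟩)
  | zero => rw [mulVec_zero]; exact Submodule.zero_mem _
  | add v w _ _ hv hw => rw [mulVec_add]; exact Submodule.add_mem _ hv hw
  | smul c v _ hv => rw [mulVec_smul]; exact Submodule.smul_mem _ _ hv

theorem hmul {r : ℕ} (A B : SpecialLinearGroup (Fin r) ℂ) :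
    ((A * B : SpecialLinearGroup (Fin r) ℂ) : Matrix (Fin r) (Fin r) ℂ) =
      (A : Matrix (Fin r) (Fin r) ℂ) * (B : Matrix (Fin r) (Fin r) ℂ) := rfl

theorem coe_comm {Γ : Type} [CommGroup Γ] {r : ℕ} (ρ : Γ →* SpecialLinearGroup (Fin r) ℂ)
    (x y : Γ) : (ρ x : Matrix (Fin r) (Fin r) ℂ) * (ρ y : Matrix (Fin r) (Fin r) ℂ) =
      (ρ y : Matrix (Fin r) (Fin r) ℂ) * (ρ x : Matrix (Fin r) (Fin r) ℂ) := by
  have h1 : ρ x * ρ y = ρ y * ρ x := by rw [← map_mul, ← map_mul, mul_comm]
  have h2 := congrArg (fun A : SpecialLinearGroup (Fin r) ℂ => (A : Matrix (Fin r) (Fin r) ℂ)) h1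
  exact (hmul _ _).symm.trans (h2.trans (hmul _ _))

/-- in a semisimple representation of a commutative group the generalized eigenspaces are
eigenspaces -/
theorem gen_eq {Γ : Type} [CommGroup Γ] {r : ℕ}
    (ρ : Γ →* SpecialLinearGroup (Fin r) ℂ) (hρ : Semisimple ρ) (x : Γ) (μ : ℂ)
    (T : Module.End ℂ (Fin r → ℂ))
    (hT : ∀ v, T v = (ρ x : Matrix (Fin r) (Fin r) ℂ) *ᵥ v) :
    T.maxGenEigenspace μ = T.eigenspace μ := by
  apply le_antisymm
  · have hst : Stable ρ (T.eigenspace μ) := by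
      intro y v hv
      rw [Module.End.mem_eigenspace_iff] at hv ⊢
      rw [hT, mulVec_mulVec, coe_comm, ← mulVec_mulVec, ← hT, hv, mulVec_smul]
    obtain ⟨W', hW', hc⟩ := hρ _ hst
    intro v hv
    rw [Module.End.mem_maxGenEigenspace] at hv
    obtain ⟨k, hk⟩ := hv
    obtain ⟨a, ha, w, hw, rfl⟩ := Submodule.mem_sup.mp
      (hc.sup_eq_top ▸ Submodule.mem_top : v ∈ T.eigenspace μ ⊔ W')
    have hw' : ∀ w ∈ W', (T - μ • 1) w ∈ W' := by
      intro w hw
      rw [LinearMap.sub_apply, LinearMap.smul_apply, Module.End.one_apply, hT]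
      exact sub_mem (hW' x w hw) (Submodule.smul_mem _ _ hw)
    have hinj : ∀ k : ℕ, ∀ w ∈ W', ((T - μ • 1) ^ k) w = 0 → w = 0 := by
      intro k
      induction k with
      | zero => intro w _ h; simpa using h
      | succ k ih =>
        intro w hw h
        rw [pow_succ, Module.End.mul_apply] at h
        have h1 := ih _ (hw' w hw) h
        have h2 : w ∈ T.eigenspace μ := by
          rw [Module.End.mem_eigenspace_iff]
          rw [LinearMap.sub_apply, LinearMap.smul_apply, Module.End.one_apply, sub_eq_zero] at h1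
          exact h1
        exact (Submodule.disjoint_def.mp hc.disjoint) w h2 hw
    have ha' : ((T - μ • 1) ^ (k + 1)) a = 0 := by
      rw [pow_succ, Module.End.mul_apply]
      rw [Module.End.mem_eigenspace_iff] at ha
      have : (T - μ • 1) a = 0 := by
        rw [LinearMap.sub_apply, LinearMap.smul_apply, Module.End.one_apply, ha, sub_self]
      rw [this, map_zero]
    have hk' : ((T - μ • 1) ^ (k + 1)) (a + w) = 0 := by
      rw [pow_succ', Module.End.mul_apply, hk, map_zero]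
    rw [map_add, ha', zero_add] at hk'
    have := hinj _ w hw hk'
    rw [this, add_zero]
    exact ha
  · intro v hv
    rw [Module.End.mem_eigenspace_iff] at hv
    rw [Module.End.mem_maxGenEigenspace]
    refine ⟨1, ?_⟩
    rw [pow_one, LinearMap.sub_apply, LinearMap.smul_apply, Module.End.one_apply, hv, sub_self]

/-- a basis of joint eigenvectors -/
theorem joint_basis {Γ : Type} [CommGroup Γ] {r : ℕ}
    (ρ : Γ →* SpecialLinearGroup (Fin r) ℂ) (hρ : Semisimple ρ) :
    ∃ (b : Basis (Fin r) ℂ (Fin r → ℂ)) (χ : Fin r → Γ → ℂ),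
      ∀ i x, (ρ x : Matrix (Fin r) (Fin r) ℂ) *ᵥ (b i) = χ i x • b i := by
  classical
  let T : Γ → Module.End ℂ (Fin r → ℂ) := fun x => Matrix.toLin' (ρ x : Matrix (Fin r) (Fin r) ℂ)
  have hT : ∀ x v, T x v = (ρ x : Matrix (Fin r) (Fin r) ℂ) *ᵥ v := fun x v => rfl
  have hcomm' : ∀ x y, Commute (T x) (T y) := by
    intro x y
    refine LinearMap.ext fun v => ?_
    rw [Module.End.mul_apply, Module.End.mul_apply, hT, hT, hT, hT, mulVec_mulVec, mulVec_mulVec,
      coe_comm]
  have htop : ⨆ χ : Γ → ℂ, ⨅ x, (T x).eigenspace (χ x) = ⊤ := by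
    have h1 := Module.End.iSup_iInf_maxGenEigenspace_eq_top_of_forall_mapsTo T
      (fun x y μ => Module.End.mapsTo_maxGenEigenspace_of_comm (hcomm' y x) μ)
      (fun x => Module.End.iSup_maxGenEigenspace_eq_top (T x))
    have h2 : ∀ x μ, (T x).maxGenEigenspace μ = (T x).eigenspace μ := fun x μ => gen_eq ρ hρ x μ (T x) (hT x)
    simpa only [h2] using h1
  let S : Set (Fin r → ℂ) := {v | ∃ χ : Γ → ℂ, ∀ x, T x v = χ x • v}
  have hS : ⊤ ≤ Submodule.span ℂ S := by
    rw [← htop]
    refine iSup_le fun χ => ?_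
    intro v hv
    apply Submodule.subset_span
    refine ⟨χ, fun x => ?_⟩
    rw [Submodule.mem_iInf] at hv
    exact Module.End.mem_eigenspace_iff.mp (hv x)
  let b := Basis.ofSpan hS
  have hb : ∀ i, b i ∈ S := fun i => Basis.ofSpan_subset hS ⟨i, rfl⟩
  have : Finite ((linearIndepOn_empty ℂ id).extend (Set.empty_subset S)) :=
    Module.Finite.finite_basis b
  have := Fintype.ofFinite ((linearIndepOn_empty ℂ id).extend (Set.empty_subset S))
  have hcard : Fintype.card ((linearIndepOn_empty ℂ id).extend (Set.empty_subset S)) = r := by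
    rw [← Module.finrank_eq_card_basis b]; simp
  let b' : Basis (Fin r) ℂ (Fin r → ℂ) := b.reindex (Fintype.equivFinOfCardEq hcard)
  have hb' : ∀ i, b' i ∈ S := by
    intro i
    rw [Basis.reindex_apply]
    exact hb _
  choose χ hχ using hb'
  exact ⟨b', χ, fun i x => hχ i x⟩

/-- semisimple representations of commutative groups are diagonalizable -/
theorem diagonalizable {Γ : Type} [CommGroup Γ] {r : ℕ} (hr : 0 < r)
    (ρ : Γ →* SpecialLinearGroup (Fin r) ℂ) (hρ : Semisimple ρ) :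
    ∃ (h : SpecialLinearGroup (Fin r) ℂ) (χ : Γ → Fin r → ℂ),
      ∀ x, (conj h ρ x : Matrix (Fin r) (Fin r) ℂ) = diagonal (χ x) := by
  classical
  obtain ⟨b', χ, hχ⟩ := joint_basis ρ hρ
  -- the matrix
  let Q : Matrix (Fin r) (Fin r) ℂ := (Pi.basisFun ℂ (Fin r)).toMatrix b'
  have hQ : ∀ i j, Q i j = b' j i := by
    intro i j
    simp [Q, Basis.toMatrix_apply]
  have hdet : IsUnit Q.det := by
    have := Basis.invertibleToMatrix (Pi.basisFun ℂ (Fin r)) b'
    exact (Matrix.isUnit_iff_isUnit_det _).mp (isUnit_of_invertible Q)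
  obtain ⟨z, hz⟩ := IsAlgClosed.exists_pow_nat_eq (Q.det)⁻¹ hr
  have hdet0 : Q.det ≠ 0 := hdet.ne_zero
  let R : SpecialLinearGroup (Fin r) ℂ := ⟨z • Q, by
    rw [det_smul, Fintype.card_fin, hz, inv_mul_cancel₀ hdet0]⟩
  have hR : (R : Matrix (Fin r) (Fin r) ℂ) = z • Q := rfl
  refine ⟨R⁻¹, fun x i => χ i x, ?_⟩
  intro x
  have hQx : (ρ x : Matrix (Fin r) (Fin r) ℂ) * (R : Matrix (Fin r) (Fin r) ℂ) =
      R * diagonal (fun i => χ i x) := by
    rw [hR]
    ext i j
    rw [mul_diagonal, Matrix.smul_apply, hQ, mul_apply]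
    have h1 := congrFun (hχ j x) i
    simp only [mulVec, dotProduct, Pi.smul_apply, smul_eq_mul] at h1
    simp only [Matrix.smul_apply, hQ, smul_eq_mul]
    have h2 : ∑ k, (ρ x : Matrix (Fin r) (Fin r) ℂ) i k * (z * b' j k) =
        z * ∑ k, (ρ x : Matrix (Fin r) (Fin r) ℂ) i k * b' j k := by
      rw [Finset.mul_sum]
      exact Finset.sum_congr rfl fun k _ => by ring
    rw [h2, h1]; ring
  show ((R⁻¹ * ρ x * (R⁻¹)⁻¹ : SpecialLinearGroup (Fin r) ℂ) : Matrix (Fin r) (Fin r) ℂ) = _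
  rw [inv_inv, mul_assoc, hmul, hmul, hQx, ← mul_assoc, ← hmul, inv_mul_cancel]
  show (1 : Matrix (Fin r) (Fin r) ℂ) * _ = _
  rw [one_mul]

end Vale.Agent.P002
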