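import Mathlib

/-!
# P002: density of integral characters of finitely generated abelian groups
-/

namespace Vale.Agent.P002

open scoped DirectSum

/-- splitting off the free part of `B ⧸ N` -/
theorem split (B : Type) [CommGroup B] [Group.FG B] (N : Subgroup B) :
    ∃ (n : ℕ) (π : Additive B →+ (Fin n →₀ ℤ)) (s : (Fin n →₀ ℤ) →+ Additive B) (E : ℕ),
      0 < E ∧ (∀ q, π (s q) = q) ∧ (∀ b ∈ N, π (Additive.ofMul b) = 0) ∧
      ∀ b : B, π (Additive.ofMul b) = 0 → b ^ E ∈ N := by
  classical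
  have : AddGroup.FG (Additive (B ⧸ N)) := inferInstance
  obtain ⟨n, ι, _, p, hp, e, ⟨f⟩⟩ :=
    AddCommGroup.equiv_free_prod_directSum_zmod (Additive (B ⧸ N))
  let mk : Additive B →+ Additive (B ⧸ N) := MonoidHom.toAdditive (QuotientGroup.mk' N)
  let π : Additive B →+ (Fin n →₀ ℤ) :=
    (AddMonoidHom.fst _ _).comp (f.toAddMonoidHom.comp mk)
  have hmk : Function.Surjective mk := by
    intro x
    obtain ⟨b, hb⟩ := QuotientGroup.mk'_surjective N (Additive.toMul x)
    exact ⟨Additive.ofMul b, hb⟩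
  have hl : ∀ i : Fin n, ∃ a : Additive B, π a = Finsupp.single i 1 := by
    intro i
    obtain ⟨a, ha⟩ := hmk (f.symm (Finsupp.single i 1, 0))
    refine ⟨a, ?_⟩
    show (f (mk a)).1 = _
    rw [ha, AddEquiv.apply_symm_apply]
  choose l hl using hl
  let s : (Fin n →₀ ℤ) →+ Additive B :=
    Finsupp.liftAddHom (fun i => (zmultiplesHom (Additive B)) (l i))
  have hs : ∀ q, π (s q) = q := by
    have : π.comp s = AddMonoidHom.id _ := by
      apply Finsupp.addHom_ext
      intro i z
      simp [s, hl]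
    intro q
    exact DFunLike.congr_fun this q
  refine ⟨n, π, s, ∏ i, p i ^ e i, ?_, hs, ?_, ?_⟩
  · exact Finset.prod_pos fun i _ => pow_pos (hp i).pos _
  · intro b hb
    show (f (mk (Additive.ofMul b))).1 = 0
    have : mk (Additive.ofMul b) = 0 := by
      show Additive.ofMul (QuotientGroup.mk' N b) = 0
      have h1 : QuotientGroup.mk' N b = 1 := (QuotientGroup.eq_one_iff b).mpr hb
      rw [h1]; rfl
    rw [this, map_zero]; rfl
  · intro b hb
    have h1 : (∏ i, p i ^ e i) • f (mk (Additive.ofMul b)) = 0 := by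
      apply Prod.ext
      · have : (f (mk (Additive.ofMul b))).1 = 0 := hb
        rw [Prod.smul_fst, this, smul_zero]; rfl
      · rw [Prod.smul_snd]
        ext i
        have h2 : (p i ^ e i) ∣ ∏ i, p i ^ e i := Finset.dvd_prod_of_mem _ (Finset.mem_univ i)
        obtain ⟨k, hk⟩ := h2
        rw [hk]
        show (((p i ^ e i * k) • (f (mk (Additive.ofMul b))).2) i : ZMod (p i ^ e i)) = 0
        rw [DirectSum.smul_apply, nsmul_eq_mul, Nat.cast_mul, ZMod.natCast_self]
        simp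
    have h3 : mk (Additive.ofMul (b ^ (∏ i, p i ^ e i))) = 0 := by
      apply f.injective
      rw [map_zero, ← h1, ← map_nsmul, ← map_nsmul]
      rfl
    rw [← QuotientGroup.eq_one_iff]
    exact h3

/-- Dedekind: exponential sums vanishing on `⟨u⟩`-valued characters vanish -/
theorem dedekind (n : ℕ) (u : ℂˣ) (hu : ∀ k : ℤ, u ^ k = 1 → k = 0) (a : (Fin n →₀ ℤ) →₀ ℂ)
    (h : ∀ t : (Fin n →₀ ℤ) →+ ℤ, a.sum (fun q z => z * ((u ^ (t q) : ℂˣ) : ℂ)) = 0) : a = 0 := by
  classical
  let e : (Fin n →₀ ℤ) → (Multiplicative ((Fin n →₀ ℤ) →+ ℤ) →* ℂ) := fun q =>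
    { toFun := fun t => ((u ^ (Multiplicative.toAdd t q) : ℂˣ) : ℂ)
      map_one' := by simp
      map_mul' := by
        intro t t'
        rw [toAdd_mul, AddMonoidHom.add_apply, zpow_add, Units.val_mul] }
  have he : Function.Injective e := by
    intro q q' hqq
    ext i
    have h1 := DFunLike.congr_fun hqq (Multiplicative.ofAdd (Finsupp.applyAddHom i))
    have h2 : (u ^ (q i) : ℂˣ) = u ^ (q' i) := by
      apply Units.ext
      exact h1
    have h3 : u ^ (q i - q' i) = 1 := by
      rw [zpow_sub, h2, mul_inv_cancel]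
    exact sub_eq_zero.mp (hu _ h3)
  have hli := (linearIndependent_monoidHom (Multiplicative ((Fin n →₀ ℤ) →+ ℤ)) ℂ).comp e he
  rw [linearIndependent_iff] at hli
  apply hli
  funext t
  rw [Finsupp.linearCombination_apply]
  have := h (Multiplicative.toAdd t)
  rw [Finsupp.sum, Finset.sum_apply]
  exact this

/-- the main density lemma -/
theorem dense (B : Type) [CommGroup B] [Group.FG B] (N : Subgroup B) (m : ℕ) :
    ∃ M : ℕ, (0 < m → 0 < M) ∧ ∀ (u : ℂˣ) (_ : ∀ k : ℤ, u ^ k = 1 → k = 0)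
      (φ : B →* ℂˣ) (_ : ∀ b ∈ N, φ b ^ m = 1) (c : B →₀ ℂ)
      (_ : ∀ ψ : B →* ℂˣ, (∀ b ∈ N, ψ b = φ b) →
        (∀ b, ∃ (z : ℂˣ) (k : ℤ), z ^ M = 1 ∧ ψ b = z * u ^ k) →
        c.sum (fun b a => a * (ψ b : ℂ)) = 0),
      c.sum (fun b a => a * (φ b : ℂ)) = 0 := by
  classical
  obtain ⟨n, π, s, E, hE, hs, hN, hk⟩ := split B N
  refine ⟨E * m, fun h => Nat.mul_pos hE h, ?_⟩
  intro u hu φ hφ c hc
  let r : B →* B :=
    { toFun := fun b => b * (Additive.toMul (s (π (Additive.ofMul b))))⁻¹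
      map_one' := by simp
      map_mul' := by
        intro a b
        rw [ofMul_mul, map_add, map_add, toMul_add, mul_inv]
        exact mul_mul_mul_comm _ _ _ _ }
  let φ₀ : B →* ℂˣ := φ.comp r
  have hr : ∀ b, π (Additive.ofMul (r b)) = 0 := by
    intro b
    show π (Additive.ofMul (b * (Additive.toMul (s (π (Additive.ofMul b))))⁻¹)) = 0
    rw [ofMul_mul, ofMul_inv, map_add, map_neg, ofMul_toMul, hs, add_neg_cancel]
  have hφ₀ : ∀ b, φ₀ b ^ (E * m) = 1 := by
    intro b
    have h1 := hφ _ (hk _ (hr b))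
    rw [map_pow, ← pow_mul] at h1
    exact h1
  have hφN : ∀ b ∈ N, φ₀ b = φ b := by
    intro b hb
    show φ (b * (Additive.toMul (s (π (Additive.ofMul b))))⁻¹) = φ b
    rw [hN b hb, map_zero, toMul_zero, inv_one, mul_one]
  -- the exponential sum
  let a : (Fin n →₀ ℤ) →₀ ℂ := c.sum fun b z => Finsupp.single (π (Additive.ofMul b))
    (z * (φ₀ b : ℂ))
  have hsum : ∀ w : (Fin n →₀ ℤ) → ℂ, a.sum (fun q z => z * w q) =
      c.sum fun b z => z * (φ₀ b : ℂ) * w (π (Additive.ofMul b)) := by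
    intro w
    rw [Finsupp.sum_sum_index]
    · refine Finsupp.sum_congr fun b _ => ?_
      rw [Finsupp.sum_single_index (zero_mul _)]
    · intro q; exact zero_mul _
    · intro q z z'; exact add_mul _ _ _
  have ha : a = 0 := by
    apply dedekind n u hu
    intro t
    rw [hsum]
    let ψ : B →* ℂˣ :=
      { toFun := fun b => φ₀ b * u ^ (t (π (Additive.ofMul b)))
        map_one' := by simp
        map_mul' := by
          intro a b
          rw [ofMul_mul, map_add, map_add, zpow_add, map_mul]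
          exact mul_mul_mul_comm _ _ _ _ }
    have h1 := hc ψ (by
      intro b hb
      show φ₀ b * u ^ (t (π (Additive.ofMul b))) = φ b
      rw [hN b hb, map_zero, zpow_zero, mul_one, hφN b hb]) (by
      intro b
      exact ⟨φ₀ b, t (π (Additive.ofMul b)), hφ₀ b, rfl⟩)
    rw [← h1]
    refine Finsupp.sum_congr fun b _ => ?_
    show _ = _ * ((φ₀ b * u ^ (t (π (Additive.ofMul b))) : ℂˣ) : ℂ)
    rw [Units.val_mul, mul_assoc]
  have h2 := hsum (fun q => (φ (Additive.toMul (s q)) : ℂ))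
  rw [ha, Finsupp.sum_zero_index] at h2
  rw [h2]
  refine Finsupp.sum_congr fun b _ => ?_
  rw [mul_assoc, ← Units.val_mul]
  congr 2
  show φ b = φ (b * (Additive.toMul (s (π (Additive.ofMul b))))⁻¹) * _
  rw [← map_mul, inv_mul_cancel_right]

end Vale.Agent.P002
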