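import Mathlib
import Vale.Agent.P002.Defs
import Vale.Agent.P002.Diag
import Vale.Agent.P002.Struct

/-!
# P002: potential density for abelian fundamental groups
-/

namespace Vale.Agent.P002

open Matrix

/-! ### A unit of infinite order -/

theorem sq2 : ((Real.sqrt 2 : ℝ) : ℂ) ^ 2 = 2 := by
  rw [← Complex.ofReal_pow, Real.sq_sqrt (by norm_num)]; norm_num

/-- the unit `1 + √2` -/
noncomputable def uu : ℂˣ where
  val := 1 + ((Real.sqrt 2 : ℝ) : ℂ)
  inv := ((Real.sqrt 2 : ℝ) : ℂ) - 1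
  val_inv := by have := sq2; linear_combination this
  inv_val := by have := sq2; linear_combination this

theorem uu_inf (k : ℤ) (h : uu ^ k = 1) : k = 0 := by
  have h1 : ((uu ^ k : ℂˣ) : ℂ) = 1 := by rw [h]; rfl
  rw [Units.val_zpow_eq_zpow_val] at h1
  have h2 : (uu : ℂ) = ((1 + Real.sqrt 2 : ℝ) : ℂ) := by
    show 1 + ((Real.sqrt 2 : ℝ) : ℂ) = _
    push_cast; rfl
  rw [h2] at h1
  have h3 : (1 + Real.sqrt 2) ^ k = (1 : ℝ) := by exact_mod_cast h1
  have h4 : (0 : ℝ) < Real.sqrt 2 := Real.sqrt_pos.mpr (by norm_num)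
  exact (zpow_eq_one_iff_right₀ (by positivity) (by linarith)).mp h3

theorem sqrt2_int : IsIntegral ℤ ((Real.sqrt 2 : ℝ) : ℂ) := by
  apply IsIntegral.of_pow (n := 2) (by norm_num)
  rw [sq2]
  exact_mod_cast isIntegral_algebraMap (R := ℤ) (A := ℂ) (x := 2)

theorem uu_int (k : ℤ) : IsIntegral ℤ ((uu ^ k : ℂˣ) : ℂ) := by
  have h1 : IsIntegral ℤ (uu : ℂ) := isIntegral_one.add sqrt2_int
  have h2 : IsIntegral ℤ ((uu⁻¹ : ℂˣ) : ℂ) := sqrt2_int.sub isIntegral_one
  rcases k with n | n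
  · rw [Int.ofNat_eq_natCast, zpow_natCast, Units.val_pow_eq_pow_val]
    exact h1.pow n
  · rw [zpow_negSucc, ← inv_pow, Units.val_pow_eq_pow_val]
    exact h2.pow _

theorem uu_mem (L : IntermediateField ℚ ℂ) (h : ((Real.sqrt 2 : ℝ) : ℂ) ∈ L) (k : ℤ) :
    ((uu ^ k : ℂˣ) : ℂ) ∈ L := by
  rw [Units.val_zpow_eq_zpow_val]
  exact zpow_mem (add_mem (one_mem L) h) k

/-! ### The number field -/

theorem field (M : ℕ) (hM : 0 < M) : ∃ L : IntermediateField ℚ ℂ, FiniteDimensional ℚ L ∧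
    ∀ (z : ℂˣ) (k : ℤ), z ^ M = 1 → ((z * uu ^ k : ℂˣ) : ℂ) ∈ L ∧
      IsIntegral ℤ ((z * uu ^ k : ℂˣ) : ℂ) := by
  classical
  let S : Finset ℂ := insert ((Real.sqrt 2 : ℝ) : ℂ) (Polynomial.nthRootsFinset M (1 : ℂ))
  have hz : ∀ z : ℂ, z ^ M = 1 → IsIntegral ℤ z := by
    intro z hz
    apply IsIntegral.of_pow hM
    rw [hz]; exact isIntegral_one
  refine ⟨IntermediateField.adjoin ℚ (S : Set ℂ), ?_, ?_⟩
  · apply IntermediateField.finiteDimensional_adjoin
    intro x hx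
    rw [Finset.mem_coe, Finset.mem_insert, Polynomial.mem_nthRootsFinset hM] at hx
    rcases hx with rfl | hx
    · exact sqrt2_int.tower_top
    · exact (hz x hx).tower_top
  · intro z k hzM
    have hzM' : (z : ℂ) ^ M = 1 := by
      rw [← Units.val_pow_eq_pow_val, hzM]; rfl
    rw [Units.val_mul]
    refine ⟨mul_mem ?_ (uu_mem _ ?_ k), (hz _ hzM').mul (uu_int k)⟩
    · apply IntermediateField.subset_adjoin
      rw [Finset.mem_coe, Finset.mem_insert, Polynomial.mem_nthRootsFinset hM]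
      exact Or.inr hzM'
    · apply IntermediateField.subset_adjoin
      rw [Finset.mem_coe, Finset.mem_insert]
      exact Or.inl rfl

/-! ### Diagonal representations -/

variable {Γ : Type} [CommGroup Γ] {r : ℕ}

/-- the diagonal representation attached to a character of `Γ ^ r` -/
noncomputable def D (ψ : (Fin r → Γ) →* ℂˣ) (h : ∀ x : Γ, ψ (fun _ => x) = 1) :
    Γ →* SpecialLinearGroup (Fin r) ℂ where
  toFun x := ⟨diagonal (fun i => ((ψ (Pi.mulSingle i x) : ℂˣ) : ℂ)), by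
    rw [det_diagonal, ← Units.coe_prod, ← map_prod,
      Finset.univ_prod_mulSingle (fun _ : Fin r => x), h x, Units.val_one]⟩
  map_one' := by
    apply Subtype.ext
    simp
  map_mul' x y := by
    apply Subtype.ext
    show diagonal _ = diagonal _ * diagonal _
    rw [diagonal_mul_diagonal]
    congr 1
    funext i
    rw [Pi.mulSingle_mul, map_mul, Units.val_mul]

theorem D_apply (ψ : (Fin r → Γ) →* ℂˣ) (h : ∀ x : Γ, ψ (fun _ => x) = 1) (x : Γ) :
    (D ψ h x : Matrix (Fin r) (Fin r) ℂ) =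
      diagonal (fun i => ((ψ (Pi.mulSingle i x) : ℂˣ) : ℂ)) := rfl

theorem D_semisimple (ψ : (Fin r → Γ) →* ℂˣ) (h : ∀ x : Γ, ψ (fun _ => x) = 1) :
    Semisimple (D ψ h) :=
  semisimple_of_diagonal _ (fun x i => ((ψ (Pi.mulSingle i x) : ℂˣ) : ℂ)) (D_apply ψ h)

/-- the values of a polynomial on diagonal representations are exponential sums -/
theorem exp_sum {n : ℕ} (g : Fin n → Γ) (f : MvPolynomial (Fin n × Fin r × Fin r) ℂ) :
    ∃ c : (Fin r → Γ) →₀ ℂ, ∀ (ψ : (Fin r → Γ) →* ℂˣ) (h : ∀ x : Γ, ψ (fun _ => x) = 1),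
      val g f (D ψ h) = c.sum (fun b a => a * (ψ b : ℂ)) := by
  classical
  let w : Fin n × Fin r × Fin r → MonoidAlgebra ℂ (Fin r → Γ) := fun k =>
    if k.2.1 = k.2.2 then MonoidAlgebra.single (Pi.mulSingle k.2.1 (g k.1)) 1 else 0
  refine ⟨(MvPolynomial.aeval w f).coeff, ?_⟩
  intro ψ h
  let F : (Fin r → Γ) →* ℂ := (Units.coeHom ℂ).comp ψ
  have h1 : MonoidAlgebra.lift ℂ ℂ (Fin r → Γ) F (MvPolynomial.aeval w f) =
      val g f (D ψ h) := by
    unfold val
    have e : ∀ v : (Fin n × Fin r × Fin r) → ℂ, MvPolynomial.aeval v f =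
        MvPolynomial.eval v f := fun v => by
      rw [← MvPolynomial.coe_aeval_eq_eval]; rfl
    rw [← AlgHom.comp_apply, MvPolynomial.comp_aeval, e]
    congr 2
    funext k
    rw [D_apply, diagonal_apply]
    simp only [w]
    split_ifs with hk
    · rw [MonoidAlgebra.lift_single, one_smul]; rfl
    · rw [map_zero]
  rw [← h1, MonoidAlgebra.lift_apply]
  rfl

/-- a common exponent for the eigenvalues -/
theorem exponent {s : ℕ} (C : Fin s → ConjClasses (SpecialLinearGroup (Fin r) ℂ))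
    (hC : ∀ i A, ConjClasses.mk A = C i → QuasiUnipotent A) :
    ∃ m : ℕ, 0 < m ∧ ∀ i A, ConjClasses.mk A = C i → ∀ z : ℂ,
      (A : Matrix (Fin r) (Fin r) ℂ).charpoly.IsRoot z → z ^ m = 1 := by
  classical
  have h1 : ∀ i, ∃ m : ℕ, 0 < m ∧ ∀ A, ConjClasses.mk A = C i → ∀ z : ℂ,
      (A : Matrix (Fin r) (Fin r) ℂ).charpoly.IsRoot z → z ^ m = 1 := by
    intro i
    obtain ⟨A₀, hA₀⟩ := ConjClasses.exists_rep (C i)
    have h2 : ∀ z : ℂ, ∃ m : ℕ, 0 < m ∧
        ((A₀ : Matrix (Fin r) (Fin r) ℂ).charpoly.IsRoot z → z ^ m = 1) := by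
      intro z
      by_cases hz : (A₀ : Matrix (Fin r) (Fin r) ℂ).charpoly.IsRoot z
      · obtain ⟨m, hm, hm'⟩ := hC i A₀ hA₀ z hz
        exact ⟨m, hm, fun _ => hm'⟩
      · exact ⟨1, one_pos, fun h => absurd h hz⟩
    choose m hm hm' using h2
    refine ⟨∏ z ∈ (A₀ : Matrix (Fin r) (Fin r) ℂ).charpoly.roots.toFinset, m z,
      Finset.prod_pos fun z _ => hm z, ?_⟩
    intro A hA z hz
    have hconj : IsConj A₀ A := by
      rw [← ConjClasses.mk_eq_mk_iff_isConj, hA, hA₀]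
    have hchar : (A : Matrix (Fin r) (Fin r) ℂ).charpoly =
        (A₀ : Matrix (Fin r) (Fin r) ℂ).charpoly := by
      obtain ⟨c, hc⟩ := isConj_iff.mp hconj
      have h3 : (A : Matrix (Fin r) (Fin r) ℂ) = (c : Matrix (Fin r) (Fin r) ℂ) *
          (A₀ : Matrix (Fin r) (Fin r) ℂ) * ((c⁻¹ : SpecialLinearGroup (Fin r) ℂ) :
            Matrix (Fin r) (Fin r) ℂ) := by
        rw [← hmul, ← hmul, hc]
      rw [h3, mul_assoc, Matrix.charpoly_mul_comm, mul_assoc, ← hmul c⁻¹ c, inv_mul_cancel]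
      show ((A₀ : Matrix (Fin r) (Fin r) ℂ) * (1 : Matrix (Fin r) (Fin r) ℂ)).charpoly = _
      rw [mul_one]
    rw [hchar] at hz
    have hmem : z ∈ (A₀ : Matrix (Fin r) (Fin r) ℂ).charpoly.roots.toFinset := by
      rw [Multiset.mem_toFinset, Polynomial.mem_roots (Matrix.charpoly_monic _).ne_zero]
      exact hz
    obtain ⟨k, hk⟩ := Finset.dvd_prod_of_mem m hmem
    rw [hk, pow_mul, hm' z hz, one_pow]
  choose m hm hm' using h1
  refine ⟨∏ i, m i, Finset.prod_pos fun i _ => hm i, ?_⟩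
  intro i A hA z hz
  obtain ⟨k, hk⟩ := Finset.dvd_prod_of_mem m (Finset.mem_univ i)
  rw [hk, pow_mul, hm' i A hA z hz, one_pow]

/-- potential density for abelian groups -/
theorem main (Γ : Type) [CommGroup Γ] [Group.FG Γ] (r s : ℕ) (hr : 0 < r) (γ : Fin s → Γ)
    (C : Fin s → ConjClasses (SpecialLinearGroup (Fin r) ℂ))
    (hC : ∀ i A, ConjClasses.mk A = C i → QuasiUnipotent A) :
    ∃ L : IntermediateField ℚ ℂ, FiniteDimensional ℚ L ∧
      ∀ (n : ℕ) (g : Fin n → Γ) (f : MvPolynomial (Fin n × Fin r × Fin r) ℂ), Invariant g f →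
        (∀ ρ : Γ →* SpecialLinearGroup (Fin r) ℂ, InY γ C ρ → Integral L ρ → val g f ρ = 0) →
        ∀ ρ : Γ →* SpecialLinearGroup (Fin r) ℂ, InY γ C ρ → val g f ρ = 0 := by
  classical
  obtain ⟨m, hm, hm'⟩ := exponent C hC
  let N : Subgroup (Fin r → Γ) := Subgroup.closure
    (Set.range (fun x : Γ => (fun _ : Fin r => x)) ∪
      Set.range (fun p : Fin r × Fin s => (Pi.mulSingle p.1 (γ p.2) : Fin r → Γ)))
  obtain ⟨M, hM, hdense⟩ := dense (Fin r → Γ) N m
  obtain ⟨L, hL, hL'⟩ := field M (hM hm)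
  refine ⟨L, hL, ?_⟩
  intro n g f hf hint ρ hρ
  obtain ⟨h, χ, hχ⟩ := diagonalizable hr ρ hρ.1
  -- the characters
  let X : Fin r → (Γ →* ℂ) := fun i =>
    { toFun := fun x => (conj h ρ x : Matrix (Fin r) (Fin r) ℂ) i i
      map_one' := by
        rw [map_one]
        show (1 : Matrix (Fin r) (Fin r) ℂ) i i = 1
        rw [one_apply_eq]
      map_mul' := by
        intro x y
        rw [map_mul, hmul, hχ, hχ, diagonal_mul_diagonal, diagonal_apply_eq, diagonal_apply_eq,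
          diagonal_apply_eq] }
  let φ : (Fin r → Γ) →* ℂˣ :=
    ∏ i, (MonoidHom.toHomUnits (X i)).comp (Pi.evalMonoidHom (fun _ : Fin r => Γ) i)
  have hφ : ∀ b : Fin r → Γ, ((φ b : ℂˣ) : ℂ) = ∏ i, χ (b i) i := by
    intro b
    simp only [φ, MonoidHom.finsetProd_apply, Units.coe_prod]
    refine Finset.prod_congr rfl fun i _ => ?_
    show (conj h ρ (b i) : Matrix (Fin r) (Fin r) ℂ) i i = _
    rw [hχ, diagonal_apply_eq]
  have hχ1 : ∀ i, χ 1 i = 1 := by
    intro i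
    have := (X i).map_one
    have h2 : X i 1 = χ 1 i := by
      show (conj h ρ 1 : Matrix (Fin r) (Fin r) ℂ) i i = _
      rw [hχ, diagonal_apply_eq]
    rw [← h2, this]
  have hφs : ∀ i x, ((φ (Pi.mulSingle i x) : ℂˣ) : ℂ) = χ x i := by
    intro i x
    rw [hφ, Finset.prod_eq_single i]
    · rw [Pi.mulSingle_eq_same]
    · intro j _ hj
      rw [Pi.mulSingle_eq_of_ne hj, hχ1]
    · intro hi; exact absurd (Finset.mem_univ i) hi
  have hφΔ : ∀ x : Γ, φ (fun _ => x) = 1 := by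
    intro x
    apply Units.ext
    rw [hφ, ← det_diagonal, ← hχ x]
    exact (conj h ρ x).2
  have hDφ : D φ hφΔ = conj h ρ := by
    ext x : 2
    rw [D_apply, hχ]
    congr 1
    funext i
    exact hφs i x
  have hNφ : ∀ b ∈ N, φ b ^ m = 1 := by
    intro b hb
    induction hb using Subgroup.closure_induction with
    | mem b hb =>
      rcases hb with ⟨x, rfl⟩ | ⟨⟨i, j⟩, rfl⟩
      · show φ (fun _ => x) ^ m = 1
        rw [hφΔ, one_pow]
      · show φ (Pi.mulSingle i (γ j)) ^ m = 1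
        apply Units.ext
        rw [Units.val_pow_eq_pow_val, hφs, Units.val_one]
        apply hm' j (conj h ρ (γ j))
        · rw [← hρ.2 j, ConjClasses.mk_eq_mk_iff_isConj]
          exact (isConj_iff.mpr ⟨h, rfl⟩).symm
        · rw [hχ, Matrix.charpoly_diagonal, Polynomial.IsRoot, Polynomial.eval_prod]
          apply Finset.prod_eq_zero (Finset.mem_univ i)
          simp
    | one => rw [map_one, one_pow]
    | mul a b _ _ ha hb => rw [map_mul, mul_pow, ha, hb, one_mul]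
    | inv a _ ha => rw [map_inv, inv_pow, ha, inv_one]
  obtain ⟨c, hc⟩ := exp_sum g f
  have hgoal : val g f ρ = c.sum (fun b a => a * (φ b : ℂ)) := by
    rw [← hc φ hφΔ, hDφ, hf ρ h]
  rw [hgoal]
  apply hdense uu uu_inf φ hNφ c
  intro ψ hψN hψ
  have hψΔ : ∀ x : Γ, ψ (fun _ => x) = 1 := by
    intro x
    rw [hψN _ (Subgroup.subset_closure (Or.inl ⟨x, rfl⟩)), hφΔ]
  rw [← hc ψ hψΔ]
  apply hint
  · refine ⟨D_semisimple ψ hψΔ, ?_⟩
    intro j
    have h1 : D ψ hψΔ (γ j) = conj h ρ (γ j) := by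
      rw [← hDφ]
      apply Subtype.ext
      rw [D_apply, D_apply]
      congr 1
      funext i
      rw [hψN _ (Subgroup.subset_closure (Or.inr ⟨(i, j), rfl⟩))]
    rw [h1, ← hρ.2 j, ConjClasses.mk_eq_mk_iff_isConj]
    exact (isConj_iff.mpr ⟨h, rfl⟩).symm
  · intro x i j
    rw [D_apply, diagonal_apply]
    split_ifs
    · obtain ⟨z, k, hz, hk⟩ := hψ (Pi.mulSingle i x)
      rw [hk]
      exact hL' z k hz
    · exact ⟨zero_mem L, isIntegral_zero⟩

end Vale.Agent.P002
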